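import Mathlib

/-!
# P105: Bernoulli convolutions, definitions
-/

namespace Vale.Agent.Lib.P105

open MeasureTheory ProbabilityTheory
open scoped ENNReal

/-- The fair coin on `Bool`. -/
noncomputable def coin : Measure Bool :=
  (2⁻¹ : ℝ≥0∞) • Measure.dirac true + (2⁻¹ : ℝ≥0∞) • Measure.dirac false

/-- The sign `+1` or `-1` attached to a coin toss. -/
def sgn (b : Bool) : ℝ := if b then 1 else -1

/-- The random series `∑ ε_n l ^ n` as a function of the sequence of coin tosses. -/
noncomputable def series (l : ℝ) (ω : ℕ → Bool) : ℝ := ∑' n, sgn (ω n) * l ^ n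

/-- The Bernoulli convolution `ν_l`: the law of the random series under independent fair coins. -/
noncomputable def nu (l : ℝ) : Measure ℝ :=
  (Measure.infinitePi (fun _ : ℕ => coin)).map (series l)

/-- Pisot numbers: real algebraic integers `> 1` all of whose other conjugates (complex roots of
the minimal polynomial over `ℚ`) have modulus `< 1`. -/
def IsPisot (β : ℝ) : Prop :=
  IsIntegral ℤ β ∧ 1 < β ∧
    ∀ z : ℂ, Polynomial.aeval z (minpoly ℚ β) = 0 → z ≠ (β : ℂ) → ‖z‖ < 1

end Vale.Agent.Lib.P105
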