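import Mathlib
import Vale.Agent.Lib.P105.Defs

namespace Vale.Agent.Lib.P105

open MeasureTheory ProbabilityTheory Filter Topology
open scoped ENNReal

instance : IsProbabilityMeasure coin := by
  constructor
  simp [coin, ENNReal.inv_two_add_inv_two]

lemma abs_sgn (b : Bool) : |sgn b| = 1 := by
  cases b <;> simp [sgn]

lemma summable_terms (l : ℝ) (h0 : 0 ≤ l) (h1 : l < 1) (ω : ℕ → Bool) :
    Summable (fun n => sgn (ω n) * l ^ n) := by
  refine Summable.of_norm_bounded (g := fun n => l ^ n) (summable_geometric_of_lt_one h0 h1) ?_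
  intro n
  rw [norm_mul, Real.norm_eq_abs, abs_sgn, one_mul, Real.norm_eq_abs, abs_of_nonneg (by positivity)]

lemma measurable_sgn : Measurable sgn := measurable_of_finite _

lemma measurable_of_summable (c : ℕ → ℝ)
    (hs : ∀ ω : ℕ → Bool, Summable (fun n => sgn (ω n) * c n)) :
    Measurable (fun ω : ℕ → Bool => ∑' n, sgn (ω n) * c n) := by
  refine measurable_of_tendsto_metrizable
    (f := fun N (ω : ℕ → Bool) => ∑ n ∈ Finset.range N, sgn (ω n) * c n) (fun N => ?_) ?_
  · refine Finset.measurable_sum _ (fun n _ => ?_)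
    exact (measurable_sgn.comp (measurable_pi_apply n)).mul_const _
  · rw [tendsto_pi_nhds]
    intro ω
    exact (hs ω).hasSum.tendsto_sum_nat

lemma measurable_series (l : ℝ) (h0 : 0 ≤ l) (h1 : l < 1) : Measurable (series l) :=
  measurable_of_summable (fun n => l ^ n) (summable_terms l h0 h1)

/-- The decomposition `ν_l = ρ ∗ ν_{l^k}`. -/
lemma nu_eq_conv (l : ℝ) (h0 : 0 ≤ l) (h1 : l < 1) (k : ℕ) (hk : 1 ≤ k) :
    ∃ ρ : Measure ℝ, IsProbabilityMeasure ρ ∧ nu l = ρ ∗ nu (l ^ k) := by
  classical
  set P : Measure (ℕ → Bool) := Measure.infinitePi (fun _ : ℕ => coin) with hP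
  have hk0 : 0 ≤ l ^ k := by positivity
  have hk1 : l ^ k < 1 := pow_lt_one₀ h0 h1 (by omega)
  -- the two pieces
  set c : ℕ → ℝ := fun n => if k ∣ n then 0 else l ^ n with hc
  set π : (ℕ → Bool) → (ℕ → Bool) := fun ω m => ω (k * m) with hπ
  set πT : (ℕ → Bool) → (ℕ → Bool) := fun ω n => if k ∣ n then false else ω n with hπT
  set W : (ℕ → Bool) → ℝ := fun ω => ∑' n, sgn (ω n) * c n with hW
  set Z : (ℕ → Bool) → ℝ := fun ω => series (l ^ k) (π ω) with hZ
  have hsc : ∀ ω : ℕ → Bool, Summable (fun n => sgn (ω n) * c n) := by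
    intro ω
    refine Summable.of_norm_bounded (g := fun n => l ^ n) (summable_geometric_of_lt_one h0 h1) ?_
    intro n
    rw [norm_mul, Real.norm_eq_abs, abs_sgn, one_mul, Real.norm_eq_abs]
    by_cases h : k ∣ n
    · simp [hc, h]; positivity
    · simp [hc, h, abs_of_nonneg (pow_nonneg h0 n)]
  have hWm : Measurable W := measurable_of_summable c hsc
  have hπm : Measurable π := by
    rw [measurable_pi_iff]; intro m; exact measurable_pi_apply _
  have hZm : Measurable Z := (measurable_series _ hk0 hk1).comp hπm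
  have hinj : Function.Injective (fun m : ℕ => k * m) := by
    intro a b hab
    exact Nat.eq_of_mul_eq_mul_left (by omega) hab
  -- the series splits
  have hsplit : series l = W + Z := by
    funext ω
    have hs := summable_terms l h0 h1 ω
    set d : ℕ → ℝ := fun n => if k ∣ n then sgn (ω n) * l ^ n else 0 with hd
    have hsd : Summable d := by
      refine Summable.of_norm_bounded (g := fun n => l ^ n)
        (summable_geometric_of_lt_one h0 h1) ?_
      intro n
      by_cases h : k ∣ n
      · simp only [hd, h, if_true]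
        rw [norm_mul, Real.norm_eq_abs, abs_sgn, one_mul, Real.norm_eq_abs,
          abs_of_nonneg (pow_nonneg h0 n)]
      · simp [hd, h]; positivity
    have e1 : series l ω = ∑' n, (sgn (ω n) * c n + d n) := by
      unfold series
      congr 1
      funext n
      by_cases h : k ∣ n <;> simp [hc, hd, h]
    have e2 : Z ω = ∑' n, d n := by
      have : ∑' m : ℕ, d (k * m) = ∑' n, d n := by
        apply hinj.tsum_eq
        intro n hn
        have : k ∣ n := by
          by_contra h
          exact hn (by simp [hd, h])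
        obtain ⟨m, rfl⟩ := this
        exact ⟨m, rfl⟩
      rw [← this]
      simp only [hZ, series, hπ, hd, dvd_mul_right, if_true, pow_mul]
    rw [e1, (hsc ω).tsum_add hsd, Pi.add_apply, e2]
  -- independence
  have hInd : iIndepFun (fun (i : ℕ) (ω : ℕ → Bool) => ω i) P :=
    iIndepFun_infinitePi (X := fun _ b => b) (fun _ => measurable_id)
  set S : Set ℕ := {n | k ∣ n} with hS
  set T : Set ℕ := {n | ¬ k ∣ n} with hT
  have hST : Disjoint T S := by
    rw [Set.disjoint_left]; intro n hn hn'; exact hn hn'
  set mm : ℕ → MeasurableSpace (ℕ → Bool) :=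
    fun i => MeasurableSpace.comap (fun ω : ℕ → Bool => ω i) inferInstance with hmm
  have hI2 : Indep (⨆ i ∈ T, mm i) (⨆ i ∈ S, mm i) P :=
    indep_iSup_of_disjoint (fun i => (measurable_pi_apply i).comap_le) hInd hST
  have hZS : MeasurableSpace.comap Z inferInstance ≤ ⨆ i ∈ S, mm i := by
    rw [← measurable_iff_comap_le]
    refine (measurable_series _ hk0 hk1).comp ?_
    rw [@measurable_pi_iff]
    intro m
    rw [measurable_iff_comap_le]
    exact le_iSup₂ (f := fun i (_ : i ∈ S) => mm i) (k * m) (by simp [hS])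
  have hWT : MeasurableSpace.comap W inferInstance ≤ ⨆ i ∈ T, mm i := by
    have hWW : W = W ∘ πT := by
      funext ω
      simp only [hW, Function.comp, hπT]
      congr 1
      funext n
      by_cases h : k ∣ n <;> simp [hc, h]
    rw [← measurable_iff_comap_le, hWW]
    refine hWm.comp ?_
    rw [@measurable_pi_iff]
    intro n
    by_cases h : k ∣ n
    · simp only [hπT, h, if_true]
      exact @measurable_const _ _ _ _ _
    · simp only [hπT, h, if_false]
      rw [measurable_iff_comap_le]
      exact le_iSup₂ (f := fun i (_ : i ∈ T) => mm i) n (by simpa [hT] using h)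
  have hIF : IndepFun W Z P :=
    indep_of_indep_of_le_left (indep_of_indep_of_le_right hI2 hZS) hWT
  refine ⟨P.map W, Measure.isProbabilityMeasure_map hWm.aemeasurable, ?_⟩
  have hlawZ : P.map Z = nu (l ^ k) := by
    have : P.map π = P := by
      have := Measure.map_infinitePi_infinitePi_of_inj (P := fun _ : ℕ => coin) hinj
      simpa [hπ, hP] using this
    rw [hZ, nu, ← hP]
    conv_rhs => rw [← this]
    rw [Measure.map_map (measurable_series _ hk0 hk1) hπm]
    rfl
  rw [← hlawZ, ← hIF.map_add_eq_map_conv_map hWm hZm, ← hsplit, nu]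

end Vale.Agent.Lib.P105
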