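import Mathlib
import Vale.Agent.Lib.P105.Defs

namespace Vale.Agent.Lib.P105

open Polynomial

/-- a conjugate of `θ` raised to the power `a` is a conjugate of `θ ^ a`. -/
lemma aeval_pow_conj (θ : ℝ) (hθ : IsIntegral ℚ θ) (a : ℕ) (z : ℂ)
    (hz : aeval z (minpoly ℚ θ) = 0) : aeval (z ^ a) (minpoly ℚ (θ ^ a)) = 0 := by
  have h1 : aeval θ ((minpoly ℚ (θ ^ a)).comp (X ^ a)) = 0 := by
    rw [aeval_comp]; simp [minpoly.aeval]
  have h2 : minpoly ℚ θ ∣ (minpoly ℚ (θ ^ a)).comp (X ^ a) := minpoly.dvd ℚ θ h1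
  obtain ⟨q, hq⟩ := h2
  have h3 : aeval z ((minpoly ℚ (θ ^ a)).comp (X ^ a)) = 0 := by
    rw [hq, map_mul, hz, zero_mul]
  rw [aeval_comp] at h3
  simpa using h3

/-- If `θ ^ a` and `θ ^ (a + 1)` are Pisot (`a ≥ 1`, `θ > 1`... ) then `θ` is Pisot. -/
lemma isPisot_of_pow (θ : ℝ) (h1 : 1 < θ) (a : ℕ) (ha : 1 ≤ a)
    (hA : IsPisot (θ ^ a)) (hB : IsPisot (θ ^ (a + 1))) : IsPisot θ := by
  have hint : IsIntegral ℤ θ := IsIntegral.of_pow (by omega) hA.1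
  have hintQ : IsIntegral ℚ θ := hint.tower_top
  refine ⟨hint, h1, ?_⟩
  intro z hz hne
  by_contra hlt
  push_neg at hlt
  have hza := aeval_pow_conj θ hintQ a z hz
  have hzb := aeval_pow_conj θ hintQ (a + 1) z hz
  have e1 : z ^ a = ((θ ^ a : ℝ) : ℂ) := by
    by_contra hne'
    have := hA.2.2 _ hza hne'
    rw [norm_pow] at this
    have h' : (1 : ℝ) ≤ ‖z‖ ^ a := one_le_pow₀ hlt
    linarith
  have e2 : z ^ (a + 1) = ((θ ^ (a + 1) : ℝ) : ℂ) := by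
    by_contra hne'
    have := hB.2.2 _ hzb hne'
    rw [norm_pow] at this
    have h' : (1 : ℝ) ≤ ‖z‖ ^ (a + 1) := one_le_pow₀ hlt
    linarith
  apply hne
  have hθ0 : ((θ ^ a : ℝ) : ℂ) ≠ 0 := by
    have : (θ ^ a : ℝ) ≠ 0 := by positivity
    exact_mod_cast this
  rw [pow_succ, e1] at e2
  have : ((θ ^ a : ℝ) : ℂ) * z = ((θ ^ a : ℝ) : ℂ) * (θ : ℂ) := by
    rw [e2]; push_cast; ring
  exact mul_left_cancel₀ hθ0 this

end Vale.Agent.Lib.P105
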