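import Mathlib
import Vale.Agent.Lib.P105.Defs
import Vale.Agent.Lib.P105.Conv
import Vale.Agent.Lib.P105.Pisot

namespace Vale.Agent.Lib.P105

open MeasureTheory ProbabilityTheory Filter Topology
open scoped ENNReal

lemma ac_of_ac_pow (l : ℝ) (h0 : 0 ≤ l) (h1 : l < 1) (k : ℕ) (hk : 1 ≤ k)
    (h : nu (l ^ k) ≪ volume) : nu l ≪ volume := by
  obtain ⟨ρ, hρ, e⟩ := nu_eq_conv l h0 h1 k hk
  have hk0 : 0 ≤ l ^ k := by positivity
  have hk1 : l ^ k < 1 := pow_lt_one₀ h0 h1 (by omega)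
  have : IsProbabilityMeasure (nu (l ^ k)) :=
    Measure.isProbabilityMeasure_map (measurable_series _ hk0 hk1).aemeasurable
  rw [e]
  exact Measure.conv_absolutelyContinuous h

lemma sing_pow_of_sing (l : ℝ) (h0 : 0 ≤ l) (h1 : l < 1) (k : ℕ) (hk : 1 ≤ k)
    (h : nu l ⟂ₘ (volume : Measure ℝ)) : nu (l ^ k) ⟂ₘ (volume : Measure ℝ) := by
  obtain ⟨ρ, hρ, e⟩ := nu_eq_conv l h0 h1 k hk
  have hk0 : 0 ≤ l ^ k := by positivity
  have hk1 : l ^ k < 1 := pow_lt_one₀ h0 h1 (by omega)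
  have : IsProbabilityMeasure (nu (l ^ k)) :=
    Measure.isProbabilityMeasure_map (measurable_series _ hk0 hk1).aemeasurable
  obtain ⟨A, hA, hνA, hvA⟩ := h
  rw [e, ← lintegral_indicator_one hA, Measure.lintegral_conv (by measurability)] at hνA
  have hmeas : Measurable (fun x : ℝ => ∫⁻ y, A.indicator (1 : ℝ → ℝ≥0∞) (x + y) ∂(nu (l ^ k))) := by
    have : Measurable (fun p : ℝ × ℝ => A.indicator (1 : ℝ → ℝ≥0∞) (p.1 + p.2)) :=
      (measurable_one.indicator hA).comp (measurable_fst.add measurable_snd)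
    exact this.lintegral_prod_right'
  rw [lintegral_eq_zero_iff hmeas] at hνA
  obtain ⟨x, hx⟩ := hνA.exists
  simp only [Pi.zero_apply] at hx
  have hpre : MeasurableSet ((fun y => x + y) ⁻¹' A) := hA.preimage (measurable_const_add x)
  refine ⟨(fun y => x + y) ⁻¹' A, hpre, ?_, ?_⟩
  · rw [← lintegral_indicator_one hpre]
    rw [← hx]
    rfl
  · rw [← Set.preimage_compl]
    rw [measure_preimage_add]
    exact hvA

/-- Localisation: a singular non-Pisot parameter produces one in the window `l ^ 2 ≤ 1 / 2`,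
unless it lies in the window `1 / 2 < l ^ 2`, `l ^ 3 ≤ 1 / 2` and its square is Pisot. -/
lemma localise (l : ℝ) (hl : 1 / 2 < l) (h1 : l < 1) (hs : nu l ⟂ₘ (volume : Measure ℝ))
    (hP : ¬ IsPisot l⁻¹) :
    (∃ k : ℕ, 1 ≤ k ∧ 1 / 2 < l ^ k ∧ (l ^ k) ^ 2 ≤ 1 / 2 ∧
      nu (l ^ k) ⟂ₘ (volume : Measure ℝ) ∧ ¬ IsPisot (l ^ k)⁻¹) ∨
    (1 / 2 < l ^ 2 ∧ l ^ 3 ≤ 1 / 2 ∧ IsPisot (l ^ 2)⁻¹) := by
  have h0 : 0 < l := by linarith
  by_cases c2 : l ^ 2 ≤ 1 / 2
  · left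
    exact ⟨1, le_refl _, by simpa using hl, by simpa using c2, by simpa using hs,
      by simpa using hP⟩
  push Not at c2
  by_cases c3 : l ^ 3 ≤ 1 / 2
  · by_cases hP2 : IsPisot (l ^ 2)⁻¹
    · right; exact ⟨c2, c3, hP2⟩
    · left
      refine ⟨2, by norm_num, c2, ?_, sing_pow_of_sing l h0.le h1 2 (by norm_num) hs, hP2⟩
      have : (l ^ 2) ^ 2 = l ^ 3 * l := by ring
      rw [this]
      have h3 : 0 ≤ l ^ 3 := by positivity
      nlinarith
  push Not at c3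
  left
  -- the least exponent with `l ^ n ≤ 1 / 2`
  have hex : ∃ n : ℕ, l ^ n ≤ 1 / 2 := by
    obtain ⟨n, hn⟩ := exists_pow_lt_of_lt_one (by norm_num : (0 : ℝ) < 1 / 2) h1
    exact ⟨n, hn.le⟩
  classical
  set N := Nat.find hex with hN
  have hNle : l ^ N ≤ 1 / 2 := Nat.find_spec hex
  have hmin : ∀ m, m < N → 1 / 2 < l ^ m := by
    intro m hm
    have := Nat.find_min hex hm
    push Not at this
    exact this
  have hN4 : 4 ≤ N := by
    by_contra hlt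
    push Not at hlt
    have : l ^ 3 ≤ l ^ N := pow_le_pow_of_le_one h0.le h1.le (by omega)
    linarith
  obtain ⟨a, ha⟩ : ∃ a, N = a + 2 := ⟨N - 2, by omega⟩
  have ha2 : 2 ≤ a := by omega
  have w1 : 1 / 2 < l ^ a := hmin a (by omega)
  have w2 : 1 / 2 < l ^ (a + 1) := hmin (a + 1) (by omega)
  have q1 : (l ^ a) ^ 2 ≤ 1 / 2 := by
    rw [← pow_mul]
    exact le_trans (pow_le_pow_of_le_one h0.le h1.le (by omega)) hNle
  have q2 : (l ^ (a + 1)) ^ 2 ≤ 1 / 2 := by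
    rw [← pow_mul]
    exact le_trans (pow_le_pow_of_le_one h0.le h1.le (by omega)) hNle
  by_cases pa : IsPisot (l ^ a)⁻¹
  · by_cases pb : IsPisot (l ^ (a + 1))⁻¹
    · exfalso
      apply hP
      have hθ : 1 < l⁻¹ := (one_lt_inv₀ h0).2 h1
      refine isPisot_of_pow l⁻¹ hθ a (by omega) ?_ ?_
      · rwa [inv_pow]
      · rwa [inv_pow]
    · exact ⟨a + 1, by omega, w2, q2, sing_pow_of_sing l h0.le h1 _ (by omega) hs, pb⟩
  · exact ⟨a, by omega, w1, q1, sing_pow_of_sing l h0.le h1 _ (by omega) hs, pa⟩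

end Vale.Agent.Lib.P105
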